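import Vale.Agent.Lib.P034.Main

open Finset

namespace Vale.Agent.Results.P034.BoundedDegreeSupport

open Vale.Agent.Lib.P034

variable {X : Type} [Fintype X] [DecidableEq X]

/-- `u, v` are consecutive elements of `S` in the order induced by `e` -/
def Cons (e : X → ℕ) (S : Finset X) (u v : X) : Prop :=
  u ∈ S ∧ v ∈ S ∧ e u < e v ∧ ∀ w ∈ S, ¬ (e u < e w ∧ e w < e v)

omit [Fintype X] in
theorem exists_cons (e : X → ℕ) (he : Function.Injective e) (S A B : Finset X)
    (hA : A ⊆ S) (hB : B ⊆ S) (hAB : ∀ x ∈ S, x ∈ A ∨ x ∈ B) (hBne : B.Nonempty)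
    (m : X) (hmA : m ∈ A) (hmB : m ∉ B) (hmin : ∀ x ∈ S, e m ≤ e x) :
    ∃ a ∈ A, ∃ b ∈ B, Cons e S a b := by
  obtain ⟨b, hb, hbmin⟩ := exists_min_image B e hBne
  have hmb : e m < e b := by
    have h1 := hmin b (hB hb)
    have h2 : e m ≠ e b := fun h => hmB (by rw [he h]; exact hb)
    omega
  have hne : (S.filter (fun w => e w < e b)).Nonempty := ⟨m, mem_filter.mpr ⟨hA hmA, hmb⟩⟩
  obtain ⟨a, ha, hamax⟩ := exists_max_image _ e hne
  rw [mem_filter] at ha
  have haA : a ∈ A := by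
    rcases hAB a ha.1 with h | h
    · exact h
    · have := hbmin a h
      omega
  refine ⟨a, haA, b, hb, ha.1, hB hb, ha.2, ?_⟩
  rintro w hw ⟨h1, h2⟩
  have := hamax w (mem_filter.mpr ⟨hw, h2⟩)
  omega

/-- If `F` has a fractional cover `g` of cost at most `1/2` at `p` such that every element of `X`
lies in at most `d` sets of the support of `g`, then `F` is `p / (294 d)`-small. -/
theorem result (d : ℕ) (hd : 1 ≤ d)
    (F : Finset (Finset X)) (g : Finset X → ℝ) (p : ℝ) (hp0 : 0 ≤ p) (hp1 : p ≤ 1)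
    (hg : IsFracCover g F) (hcost : fcost g p ≤ 1 / 2)
    (hdeg : ∀ x : X, {S : Finset X | g S ≠ 0 ∧ x ∈ S}.ncard ≤ d) :
    IsSmall F (p / (294 * d)) := by
  classical
  set e : X → ℕ := fun x => (Fintype.equivFin X x : ℕ) with he_def
  have he : Function.Injective e := by
    intro x y hxy
    exact (Fintype.equivFin X).injective (Fin.ext hxy)
  set Γ : SimpleGraph X := SimpleGraph.fromRel (fun u v => ∃ S, g S ≠ 0 ∧ Cons e S u v) with hΓ
  have hadj : ∀ u v, Γ.Adj u v ↔ ∃ S, g S ≠ 0 ∧ (Cons e S u v ∨ Cons e S v u) := by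
    intro u v
    rw [hΓ, SimpleGraph.fromRel_adj]
    constructor
    · rintro ⟨_, ⟨S, h1, h2⟩ | ⟨S, h1, h2⟩⟩
      · exact ⟨S, h1, Or.inl h2⟩
      · exact ⟨S, h1, Or.inr h2⟩
    · rintro ⟨S, h1, h2 | h2⟩
      · refine ⟨?_, Or.inl ⟨S, h1, h2⟩⟩
        rintro rfl
        exact absurd h2.2.2.1 (lt_irrefl _)
      · refine ⟨?_, Or.inr ⟨S, h1, h2⟩⟩
        rintro rfl
        exact absurd h2.2.2.1 (lt_irrefl _)
  have hΔ : ∀ v, (univ.filter (fun u => Γ.Adj v u)).card ≤ 2 * d := by
    intro v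
    set sv := univ.filter (fun S : Finset X => g S ≠ 0 ∧ v ∈ S) with hsv
    have hsvcard : sv.card ≤ d := by
      have h1 := hdeg v
      have h2 : {S : Finset X | g S ≠ 0 ∧ v ∈ S} = (sv : Set (Finset X)) := by
        ext S; simp [hsv]
      rw [h2, Set.ncard_coe_finset] at h1
      exact h1
    have hsub : univ.filter (fun u => Γ.Adj v u) ⊆
        sv.biUnion (fun S => S.filter (fun u => Cons e S v u) ∪ S.filter (fun u => Cons e S u v)) := by
      intro u hu
      rw [mem_filter, hadj] at hu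
      obtain ⟨_, S, hS, h | h⟩ := hu
      · rw [mem_biUnion]
        exact ⟨S, mem_filter.mpr ⟨mem_univ _, hS, h.1⟩,
          mem_union_left _ (mem_filter.mpr ⟨h.2.1, h⟩)⟩
      · rw [mem_biUnion]
        exact ⟨S, mem_filter.mpr ⟨mem_univ _, hS, h.2.1⟩,
          mem_union_right _ (mem_filter.mpr ⟨h.1, h⟩)⟩
    have hone1 : ∀ S : Finset X, (S.filter (fun u => Cons e S v u)).card ≤ 1 := by
      intro S
      rw [card_le_one]
      intro a ha b hb
      rw [mem_filter] at ha hb
      apply he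
      by_contra hne
      rcases Nat.lt_or_gt_of_ne hne with h | h
      · exact hb.2.2.2.2 a ha.1 ⟨ha.2.2.2.1, h⟩
      · exact ha.2.2.2.2 b hb.1 ⟨hb.2.2.2.1, h⟩
    have hone2 : ∀ S : Finset X, (S.filter (fun u => Cons e S u v)).card ≤ 1 := by
      intro S
      rw [card_le_one]
      intro a ha b hb
      rw [mem_filter] at ha hb
      apply he
      by_contra hne
      rcases Nat.lt_or_gt_of_ne hne with h | h
      · exact ha.2.2.2.2 b hb.1 ⟨h, hb.2.2.2.1⟩
      · exact hb.2.2.2.2 a ha.1 ⟨h, ha.2.2.2.1⟩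
    calc (univ.filter (fun u => Γ.Adj v u)).card ≤ _ := card_le_card hsub
      _ ≤ ∑ S ∈ sv, (S.filter (fun u => Cons e S v u) ∪ S.filter (fun u => Cons e S u v)).card :=
          card_biUnion_le
      _ ≤ ∑ S ∈ sv, 2 := by
          apply sum_le_sum
          intro S _
          have := card_union_le (S.filter (fun u => Cons e S v u)) (S.filter (fun u => Cons e S u v))
          have h1 := hone1 S
          have h2 := hone2 S
          omega
      _ = 2 * sv.card := by rw [sum_const, smul_eq_mul, mul_comm]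
      _ ≤ 2 * d := by omega
  have hconn : ∀ S, g S ≠ 0 → S.Nonempty → CutConn Γ S := by
    intro S hgS hSne
    refine ⟨hSne, ?_⟩
    intro U hU hUne hUS
    have hVne : (S \ U).Nonempty := by
      rw [sdiff_nonempty]
      intro h
      exact hUS (Subset.antisymm hU h)
    obtain ⟨m, hm, hmmin⟩ := exists_min_image S e hSne
    by_cases hmU : m ∈ U
    · obtain ⟨a, ha, b, hb, hc⟩ := exists_cons e he S U (S \ U) hU sdiff_subset
        (fun x hx => by
          by_cases hxU : x ∈ U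
          · exact Or.inl hxU
          · exact Or.inr (mem_sdiff.mpr ⟨hx, hxU⟩)) hVne m hmU
        (fun h => (mem_sdiff.mp h).2 hmU) hmmin
      exact ⟨a, ha, b, hb, (hadj a b).mpr ⟨S, hgS, Or.inl hc⟩⟩
    · obtain ⟨a, ha, b, hb, hc⟩ := exists_cons e he S (S \ U) U sdiff_subset hU
        (fun x hx => by
          by_cases hxU : x ∈ U
          · exact Or.inr hxU
          · exact Or.inl (mem_sdiff.mpr ⟨hx, hxU⟩)) hUne m (mem_sdiff.mpr ⟨hm, hmU⟩) hmU hmmin
      exact ⟨b, hb, a, ha, (hadj b a).mpr ⟨S, hgS, Or.inr hc⟩⟩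
  have h := main_cut Γ (2 * d) (by omega) (fun v => by convert hΔ v) F g p hp0 hp1 hg hcost hconn
  have e2 : p / (294 * d) = p / (147 * ((2 * d : ℕ) : ℝ)) := by
    push_cast
    ring_nf
  rw [e2]
  exact h

end Vale.Agent.Results.P034.BoundedDegreeSupport
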