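import Vale.Agent.Lib.P034.Graph

open Finset

namespace Vale.Agent.Results.P034.ConnectedSupport

open Vale.Agent.Lib.P034

theorem one_add_inv_pow_le (Δ : ℕ) (hΔ1 : 1 ≤ Δ) : (1 + 1 / (Δ:ℝ)) ^ Δ ≤ 3 := by
  have hpos : (0:ℝ) < Δ := by exact_mod_cast hΔ1
  have h1 : 1 + 1 / (Δ:ℝ) ≤ Real.exp (1 / (Δ:ℝ)) := by
    have := Real.add_one_le_exp (1 / (Δ:ℝ))
    linarith
  calc (1 + 1 / (Δ:ℝ)) ^ Δ ≤ (Real.exp (1 / (Δ:ℝ))) ^ Δ :=
        pow_le_pow_left₀ (by positivity) h1 Δ
    _ = Real.exp 1 := by
        rw [← Real.exp_nat_mul]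
        congr 1
        field_simp
    _ ≤ 3 := by
        have := Real.exp_one_lt_d9
        linarith

open Classical in
theorem main {X : Type} [Fintype X] [DecidableEq X] (Γ : SimpleGraph X)
    (Δ : ℕ) (hΔ1 : 1 ≤ Δ) (hΔ' : ∀ v, (univ.filter (fun u => Γ.Adj v u)).card ≤ Δ)
    (F : Finset (Finset X)) (g : Finset X → ℝ) (p : ℝ) (hp0 : 0 ≤ p) (hp1 : p ≤ 1)
    (hg : IsFracCover g F) (hcost : fcost g p ≤ 1 / 2)
    (hconn : ∀ S, g S ≠ 0 → (Γ.induce (S : Set X)).Preconnected) :
    IsSmall F (p / (147 * Δ)) := by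
  have hΔpos : (0:ℝ) < Δ := by exact_mod_cast hΔ1
  have hΔ1' : (1:ℝ) ≤ Δ := by exact_mod_cast hΔ1
  have hg0 : ∀ S, 0 ≤ g S := fun S => (hg.1 S).1
  set a := g ∅ with ha
  have hsplit : fcost g p = ∑ S ∈ univ.filter (fun S : Finset X => S.Nonempty), g S * p ^ S.card + a := by
    unfold fcost
    rw [← sum_filter_add_sum_filter_not univ (fun S : Finset X => S.Nonempty)]
    congr 1
    have : univ.filter (fun S : Finset X => ¬ S.Nonempty) = {∅} := by
      ext S
      simp [not_nonempty_iff_eq_empty]
    rw [this]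
    simp [ha]
  have hne_nonneg : 0 ≤ ∑ S ∈ univ.filter (fun S : Finset X => S.Nonempty), g S * p ^ S.card :=
    sum_nonneg (fun S _ => mul_nonneg (hg0 S) (by positivity))
  have ha0 : 0 ≤ a := hg0 ∅
  have ha1 : a ≤ 1 / 2 := by linarith
  set θ := 1 - a with hθ
  have hθpos : 0 < θ := by linarith
  set p1 := p / (3 * Δ) with hp1def
  have hp10 : 0 ≤ p1 := by positivity
  set α := 1 / (Δ:ℝ) with hα
  have hα0 : 0 ≤ α := by positivity
  have h3 := one_add_inv_pow_le Δ hΔ1
  have hrec : p1 * (1 + α) ^ Δ ≤ α := by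
    calc p1 * (1 + α) ^ Δ ≤ p1 * 3 := mul_le_mul_of_nonneg_left h3 hp10
      _ = p / Δ := by rw [hp1def]; field_simp
      _ ≤ α := by rw [hα]; exact div_le_div_of_nonneg_right hp1 hΔpos.le
  set TT : Finset (Finset X) := univ.filter (fun T => CutConn Γ T) with hTT
  set W : Finset X → ℝ := fun T => ∑ S ∈ T.powerset.filter (fun S => S.Nonempty), g S with hW
  have key : ∀ S : Finset X, S.Nonempty →
      ∑ T ∈ TT.filter (fun T => S ⊆ T), p1 ^ T.card ≤ p ^ S.card := by
    intro S hS
    have h1 := explore Γ Δ hΔ' p1 α hp10 hα0 hrec _ S ∅ hS (le_refl _)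
    have e : TT.filter (fun T => S ⊆ T)
        = univ.filter (fun T => CutConn Γ T ∧ S ⊆ T ∧ Disjoint T ∅) := by
      ext T
      simp [hTT]
    rw [e]
    refine h1.trans ?_
    have hc : (cand Γ S ∅).card ≤ Δ * S.card := by
      have hsub : cand Γ S ∅ ⊆ S.biUnion (fun u => univ.filter (fun v => Γ.Adj u v)) := by
        intro v hv
        unfold cand at hv
        rw [mem_filter] at hv
        obtain ⟨_, _, _, u, hu, hadj⟩ := hv
        rw [mem_biUnion]
        exact ⟨u, hu, by simp [hadj]⟩
      calc (cand Γ S ∅).card ≤ _ := card_le_card hsub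
        _ ≤ ∑ u ∈ S, (univ.filter (fun v => Γ.Adj u v)).card := card_biUnion_le
        _ ≤ ∑ u ∈ S, Δ := sum_le_sum (fun u _ => hΔ' u)
        _ = Δ * S.card := by rw [sum_const, smul_eq_mul, mul_comm]
    calc p1 ^ S.card * (1 + α) ^ (cand Γ S ∅).card
        ≤ p1 ^ S.card * (1 + α) ^ (Δ * S.card) :=
          mul_le_mul_of_nonneg_left (pow_le_pow_right₀ (by linarith) hc) (by positivity)
      _ = (p1 * (1 + α) ^ Δ) ^ S.card := by rw [pow_mul, mul_pow]
      _ ≤ p ^ S.card := by
          apply pow_le_pow_left₀ (by positivity)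
          calc p1 * (1 + α) ^ Δ ≤ p1 * 3 := mul_le_mul_of_nonneg_left h3 hp10
            _ = p / Δ := by rw [hp1def]; field_simp
            _ ≤ p := div_le_self hp0 hΔ1'
  have hcost' : ∑ T ∈ TT, W T * p1 ^ T.card ≤ θ / 2 := by
    have e1 : ∑ T ∈ TT, W T * p1 ^ T.card
        = ∑ S ∈ univ.filter (fun S : Finset X => S.Nonempty),
            ∑ T ∈ TT.filter (fun T => S ⊆ T), g S * p1 ^ T.card := by
      simp only [hW, sum_mul]
      apply sum_comm'
      intro T S
      simp only [mem_filter, mem_powerset, mem_univ, true_and]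
      tauto
    rw [e1]
    calc _ ≤ ∑ S ∈ univ.filter (fun S : Finset X => S.Nonempty), g S * p ^ S.card := by
          apply sum_le_sum
          intro S hS
          rw [← mul_sum]
          exact mul_le_mul_of_nonneg_left (key S (mem_filter.mp hS).2) (hg0 S)
      _ ≤ θ / 2 := by rw [hθ]; linarith
  have hfin : IsSmall F (p1 / 49) := by
    apply small_of_disjoint_decomposition F TT W p1 θ hp10 hθpos
    · intro T hT
      exact (mem_filter.mp hT).2.1
    · intro T _
      exact sum_nonneg (fun S _ => hg0 S)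
    · exact hcost'
    · intro H hH
      set CC := TT.filter (fun T => T ⊆ H) with hCC
      set D := CC.filter (fun T => Maximal (· ∈ CC) T) with hD
      have hdisj : (D : Set (Finset X)).PairwiseDisjoint id := by
        intro T1 h1 T2 h2 hne
        by_contra hnd
        rw [mem_coe, hD, mem_filter] at h1 h2
        have hc1 := mem_filter.mp h1.1
        have hc2 := mem_filter.mp h2.1
        have hu : T1 ∪ T2 ∈ CC := by
          rw [hCC, mem_filter, hTT, mem_filter]
          exact ⟨⟨mem_univ _, (mem_filter.mp hc1.1).2.union (mem_filter.mp hc2.1).2 hnd⟩,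
            union_subset hc1.2 hc2.2⟩
        have e1 : T1 ∪ T2 ≤ T1 := h1.2.2 hu subset_union_left
        have e2 : T1 ∪ T2 ≤ T2 := h2.2.2 hu subset_union_right
        apply hne
        apply Subset.antisymm
        · exact subset_union_left.trans e2
        · exact subset_union_right.trans e1
      refine ⟨D, ?_, hdisj, ?_, ?_⟩
      · intro T hT
        exact (mem_filter.mp (mem_filter.mp hT).1).1
      · intro T hT
        exact (mem_filter.mp (mem_filter.mp hT).1).2
      · have hH1 := hg.2 H hH
        have e0 : ∑ S ∈ H.powerset, g S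
            = ∑ S ∈ H.powerset.filter (fun S => S.Nonempty), g S + a := by
          rw [← sum_filter_add_sum_filter_not H.powerset (fun S : Finset X => S.Nonempty)]
          congr 1
          have : H.powerset.filter (fun S : Finset X => ¬ S.Nonempty) = {∅} := by
            ext S
            simp only [mem_filter, mem_powerset, not_nonempty_iff_eq_empty, mem_singleton]
            constructor
            · exact fun h => h.2
            · rintro rfl
              exact ⟨empty_subset _, rfl⟩
          rw [this]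
          simp [ha]
        have e1 : ∑ T ∈ D, W T
            = ∑ S ∈ D.biUnion (fun T => T.powerset.filter (fun S => S.Nonempty)), g S := by
          rw [sum_biUnion]
          intro T1 h1 T2 h2 hne
          have hd := hdisj h1 h2 hne
          rw [Function.onFun, disjoint_left]
          intro S hS1 hS2
          rw [mem_filter, mem_powerset] at hS1 hS2
          obtain ⟨x, hx⟩ := hS1.2
          exact (disjoint_left.mp hd) (hS1.1 hx) (hS2.1 hx)
        rw [e1]
        have e2 : ∑ S ∈ H.powerset.filter (fun S => S.Nonempty), g S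
            = ∑ S ∈ (H.powerset.filter (fun S => S.Nonempty)).filter (fun S => g S ≠ 0), g S := by
          rw [sum_filter_ne_zero]
        have e3 : ∑ S ∈ (H.powerset.filter (fun S => S.Nonempty)).filter (fun S => g S ≠ 0), g S
            ≤ ∑ S ∈ D.biUnion (fun T => T.powerset.filter (fun S => S.Nonempty)), g S := by
          apply sum_le_sum_of_subset_of_nonneg
          · intro S hS
            rw [mem_filter, mem_filter, mem_powerset] at hS
            obtain ⟨⟨hSH, hSne⟩, hgS⟩ := hS
            have hSC : S ∈ CC := by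
              rw [hCC, mem_filter, hTT, mem_filter]
              exact ⟨⟨mem_univ _, cutConn_of_preconnected Γ S hSne (hconn S hgS)⟩, hSH⟩
            obtain ⟨T, hST, hT⟩ := CC.exists_le_maximal hSC
            rw [mem_biUnion]
            refine ⟨T, ?_, ?_⟩
            · rw [hD, mem_filter]
              exact ⟨hT.1, hT⟩
            · rw [mem_filter, mem_powerset]
              exact ⟨hST, hSne⟩
          · intro S _ _
            exact hg0 S
        rw [hθ]
        linarith
  have e : p / (147 * Δ) = p1 / 49 := by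
    rw [hp1def]
    field_simp
    ring
  rw [e]
  exact hfin

/-- If `F` has a fractional cover `g` of cost at most `1/2` at `p` all of whose support sets
induce connected subgraphs of a graph `Γ` on `X` of maximum degree at most `Δ`, then `F` is
`p / (147 Δ)`-small. -/
theorem result {X : Type} [Fintype X] [DecidableEq X] (Γ : SimpleGraph X) [DecidableRel Γ.Adj]
    (Δ : ℕ) (hΔ1 : 1 ≤ Δ) (hΔ : ∀ v, Γ.degree v ≤ Δ)
    (F : Finset (Finset X)) (g : Finset X → ℝ) (p : ℝ) (hp0 : 0 ≤ p) (hp1 : p ≤ 1)
    (hg : IsFracCover g F) (hcost : fcost g p ≤ 1 / 2)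
    (hconn : ∀ S, g S ≠ 0 → (Γ.induce (S : Set X)).Preconnected) :
    IsSmall F (p / (147 * Δ)) := by
  apply main Γ Δ hΔ1 _ F g p hp0 hp1 hg hcost hconn
  intro v
  have := hΔ v
  rw [← SimpleGraph.card_neighborFinset_eq_degree, SimpleGraph.neighborFinset_eq_filter] at this
  convert this

end Vale.Agent.Results.P034.ConnectedSupport
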