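import Vale.Agent.Results.P034.BoundedDegreeSupport
import Vale.Agent.Results.P034.ConnectedSupport

open Finset

namespace Vale.Agent.Results.P034.Combined

open Vale.Agent.Lib.P034

/-- Two classes of fractional covers (arbitrary weights, arbitrary set sizes) that can be rounded
to integral covers with a constant-factor loss in `p`.

(1) If every set of the support of `g` induces a connected subgraph of a graph `Γ` on `X` of
maximum degree at most `Δ`, then `F` is `p / (147 Δ)`-small.

(2) If every element of `X` lies in at most `d` sets of the support of `g`, then `F` is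
`p / (294 d)`-small. -/
theorem result {X : Type} [Fintype X] [DecidableEq X]
    (F : Finset (Finset X)) (g : Finset X → ℝ) (p : ℝ) (hp0 : 0 ≤ p) (hp1 : p ≤ 1)
    (hg : IsFracCover g F) (hcost : fcost g p ≤ 1 / 2) :
    (∀ (Γ : SimpleGraph X) [DecidableRel Γ.Adj] (Δ : ℕ), 1 ≤ Δ → (∀ v, Γ.degree v ≤ Δ) →
      (∀ S, g S ≠ 0 → (Γ.induce (S : Set X)).Preconnected) →
      IsSmall F (p / (147 * Δ))) ∧
    (∀ d : ℕ, 1 ≤ d → (∀ x : X, {S : Finset X | g S ≠ 0 ∧ x ∈ S}.ncard ≤ d) →
      IsSmall F (p / (294 * d))) :=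
  ⟨fun Γ _ Δ hΔ1 hΔ hconn => ConnectedSupport.result Γ Δ hΔ1 hΔ F g p hp0 hp1 hg hcost hconn,
    fun d hd hdeg => BoundedDegreeSupport.result d hd F g p hp0 hp1 hg hcost hdeg⟩

end Vale.Agent.Results.P034.Combined
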